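import Vale.Agent.H22.InfHarm.DenF
import Vale.Agent.H22.InfHarm.Convex3
import Vale.Agent.H22.InfHarm.Semi6

/-!
# P080: gradient regularity of infinity-harmonic functions in every dimension, three results in
one statement

Let `u` be infinity-harmonic (a viscosity solution of `Δ_∞ u = 0`) on an open set `Ω ⊆ ℝ^d`, in
any dimension `d` (Euclidean norm).

1. (Dense points, no further hypothesis.)  If the closed ball of radius `3 r` around `z0` lies in
   `Ω` and `K` bounds the oscillation of `u` on it, then there is a point `x` with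
   `|x - z0| ≤ r / 2` at which `u` is differentiable and
   `|u(x + w) - u(x) - ⟨∇u(x), w⟩| ≤ 160 K (|w| / r)^(4 / 3)` for all `|w| ≤ r / 4`; and the points
   at which `u` has a first-order expansion with remainder `C |w|^(4 / 3)` are dense in `Ω`.
2. (Semiconvex or semiconcave solutions.)  If `u + (K/2)|x|²` is convex on `Ω` or
   `u - (K/2)|x|²` is concave on `Ω`, `K ≥ 0`, then `u` is `C^1` on `Ω` and
   `|∇u(x) - ∇u(y)| ≤ 100 (K τ^(2/3) + M τ^(-4/3)) |x - y|^(1/3)` whenever the closed `τ`-balls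
   around `x` and `y` lie in `Ω` and `M` bounds the oscillation of `u` on `Ω`.
3. (Convex or concave solutions.)  If `u` is convex or concave on `Ω`, then `u` is `C^1` on `Ω`,
   `|∇u|` is constant on `Ω`, `|∇u(x) - ∇u(y)| ≤ (M / τ²) |x - y|` for such `x`, `y`, `τ`, `M`, and
   `u` is affine if `Ω = ℝ^d`.

No constant depends on the dimension.  The three parts are, word for word, the statements of the
hand-ins `A1_DenseHolderPoints`, `B_SemiconvexC113` and `C_ConvexC11` of this folder, under their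
common hypotheses.
-/

namespace Vale.Agent.Results.P080.A00_DensePointsSemiconvexConvex

open Vale.Agent.H22.InfHarm

theorem result (d : ℕ) (Ω : Set (EuclideanSpace ℝ (Fin d)))
    (u : EuclideanSpace ℝ (Fin d) → ℝ) (hΩ : IsOpen Ω) (hu : IsInfHarmonicOn u Ω) :
    ((∀ (z0 : EuclideanSpace ℝ (Fin d)) (r K : ℝ), 0 < r → Metric.closedBall z0 (3 * r) ⊆ Ω →
        (∀ y ∈ Metric.closedBall z0 (3 * r), ∀ z ∈ Metric.closedBall z0 (3 * r),
          |u y - u z| ≤ K) →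
        ∃ x ∈ Metric.closedBall z0 (r / 2), DifferentiableAt ℝ u x ∧
          ∀ w : EuclideanSpace ℝ (Fin d), ‖w‖ ≤ r / 4 →
            |u (x + w) - u x - inner ℝ (gradient u x) w| ≤ 160 * K * (‖w‖ / r) ^ (4 / 3 : ℝ)) ∧
      (∀ z0 ∈ Ω, ∀ ε > 0, ∃ x ∈ Ω, dist x z0 < ε ∧ DifferentiableAt ℝ u x ∧
        ∃ C ρ : ℝ, 0 < ρ ∧ ∀ w : EuclideanSpace ℝ (Fin d), ‖w‖ ≤ ρ →
          |u (x + w) - u x - inner ℝ (gradient u x) w| ≤ C * ‖w‖ ^ (4 / 3 : ℝ))) ∧
    (∀ K : ℝ, 0 ≤ K →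
      (ConvexOn ℝ Ω (fun x => u x + K / 2 * ‖x‖ ^ 2) ∨
        ConcaveOn ℝ Ω (fun x => u x - K / 2 * ‖x‖ ^ 2)) →
      ContDiffOn ℝ 1 u Ω ∧
      ∀ (M τ : ℝ), 0 < τ → (∀ a ∈ Ω, ∀ b ∈ Ω, u a - u b ≤ M) →
        ∀ x y, Metric.closedBall x τ ⊆ Ω → Metric.closedBall y τ ⊆ Ω →
          ‖gradient u x - gradient u y‖
            ≤ 100 * (K * τ ^ (2 / 3 : ℝ) + M / τ ^ (4 / 3 : ℝ)) * ‖x - y‖ ^ (1 / 3 : ℝ)) ∧
    ((ConvexOn ℝ Ω u ∨ ConcaveOn ℝ Ω u) →
      ContDiffOn ℝ 1 u Ω ∧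
      (∃ L : ℝ, ∀ x ∈ Ω, ‖gradient u x‖ = L) ∧
      (∀ (M τ : ℝ), 0 < τ → (∀ a ∈ Ω, ∀ b ∈ Ω, u a - u b ≤ M) →
        ∀ x y, Metric.closedBall x τ ⊆ Ω → Metric.closedBall y τ ⊆ Ω →
          ‖gradient u x - gradient u y‖ ≤ M / τ ^ 2 * ‖x - y‖) ∧
      (Ω = Set.univ → ∃ (p : EuclideanSpace ℝ (Fin d)) (c : ℝ), ∀ x, u x = inner ℝ p x + c)) :=
  ⟨dense_holder_main hΩ hu,
    fun _ hK hc => semiconvex_or_semiconcave_main hK hΩ hu hc,
    fun hc => convex_or_concave_main hΩ hu hc⟩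

end Vale.Agent.Results.P080.A00_DensePointsSemiconvexConvex
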