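import Vale.Agent.H22.InfHarm.LipG

/-!
# P080: Hölder continuity of `|Du|` gives `C^{1,γ}` regularity of infinity-harmonic functions

Let `u` be infinity-harmonic (a viscosity solution of `Δ_∞ u = 0`) on an open set `Ω ⊆ ℝ^d`,
in any dimension `d`, and let `L x` be the pointwise Lipschitz constant of `u` at `x`,

`L x = limsup_{y → x} |u y - u x| / |y - x|`

(hypotheses `hL1` and `hL2`: the upper and the lower half of this equality).  If `L` is locally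
Hölder continuous of exponent `β ∈ (0, 1]` on `Ω`, then `u` is continuously differentiable on
`Ω`, `|∇u| = L`, and `∇u` is locally Hölder continuous of exponent `β / (2 + β)`, with the
explicit interior estimate

`|∇u(x) - ∇u(y)| ≤ (600 / β) (L(x0) / 2 + 3 H) |x - y|^(β / (2 + β))`

for `x, y` in the ball of radius `(τ / 4)^((2 + β) / 2) / 4` around `x0`, whenever `τ ≤ 1`, the
closed `τ`-ball around `x0` lies in `Ω` and `H` is a Hölder constant of `L` on the `τ`-ball.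
The constant does not depend on the dimension.  So the gradient of an infinity-harmonic
function is Hölder continuous as soon as its modulus is.
-/

namespace Vale.Agent.Results.P080.A0_LipConstHolder

open Vale.Agent.H22.InfHarm
open Filter Topology

theorem result (d : ℕ) (Ω : Set (EuclideanSpace ℝ (Fin d)))
    (u : EuclideanSpace ℝ (Fin d) → ℝ) (L : EuclideanSpace ℝ (Fin d) → ℝ) (β : ℝ)
    (hβ : 0 < β) (hβ1 : β ≤ 1) (hΩ : IsOpen Ω) (hu : IsInfHarmonicOn u Ω)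
    (hL1 : ∀ x ∈ Ω, ∀ ε > 0, ∀ᶠ y in 𝓝 x, |u y - u x| ≤ (L x + ε) * ‖y - x‖)
    (hL2 : ∀ x ∈ Ω, ∀ ε > 0, ∃ᶠ y in 𝓝[≠] x, (L x - ε) * ‖y - x‖ ≤ |u y - u x|)
    (hH : ∀ x0 ∈ Ω, ∃ r > 0, ∃ H : ℝ, ∀ x ∈ Metric.ball x0 r, ∀ y ∈ Metric.ball x0 r,
      |L x - L y| ≤ H * ‖x - y‖ ^ β) :
    ContDiffOn ℝ 1 u Ω ∧ (∀ x ∈ Ω, ‖gradient u x‖ = L x) ∧
    ∀ (τ H : ℝ), 0 < τ → τ ≤ 1 → 0 ≤ H → ∀ x0, Metric.closedBall x0 τ ⊆ Ω →
      (∀ x ∈ Metric.ball x0 τ, ∀ y ∈ Metric.ball x0 τ, |L x - L y| ≤ H * ‖x - y‖ ^ β) →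
      ∀ x ∈ Metric.ball x0 ((τ / 4) ^ ((2 + β) / 2) / 4),
        ∀ y ∈ Metric.ball x0 ((τ / 4) ^ ((2 + β) / 2) / 4),
          ‖gradient u x - gradient u y‖
            ≤ 600 / β * (L x0 / 2 + 3 * H) * ‖x - y‖ ^ (β / (2 + β)) :=
  lip_holder_main hΩ hu L hβ hβ1 hL1 hL2 hH

end Vale.Agent.Results.P080.A0_LipConstHolder
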