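import Vale.Agent.H22.InfHarm.DenF

/-!
# P080: every infinity-harmonic function is pointwise `C^{1,1/3}` on a dense set, with a
universal estimate

Let `u` be infinity-harmonic (a viscosity solution of `Δ_∞ u = 0`) on an open set `Ω ⊆ ℝ^d`,
in any dimension `d`, with no further hypothesis.

(1) If the closed ball of radius `3 r` around `z0` lies in `Ω` and `K` bounds the oscillation
of `u` on it, then there is a point `x` with `|x - z0| ≤ r / 2` at which `u` is differentiable
and

`|u(x + w) - u(x) - ⟨∇u(x), w⟩| ≤ 160 K (|w| / r)^(4 / 3)`   for all `|w| ≤ r / 4`.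

The constant `160` is universal: it does not depend on the dimension, on `u` or on `Ω`, and the
estimate is invariant under scaling.

(2) Hence the points at which `u` has a first-order expansion with a remainder of order
`|w|^(4 / 3)` are dense in `Ω`.

The exponent `4 / 3 = 1 + 1 / 3` is the one of Aronsson's example
`|x_1|^(4 / 3) - |x_2|^(4 / 3)`.  The points `x` are the points where the pointwise Lipschitz
constant `L(x) = limsup_{y → x} |u y - u x| / |y - x|` (an upper semicontinuous function) is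
touched from above by a cone `L(x) + H |z - x|`; the proof uses comparison with cones only.
-/

namespace Vale.Agent.Results.P080.A1_DenseHolderPoints

open Vale.Agent.H22.InfHarm
open Filter Topology

theorem result (d : ℕ) (Ω : Set (EuclideanSpace ℝ (Fin d)))
    (u : EuclideanSpace ℝ (Fin d) → ℝ) (hΩ : IsOpen Ω) (hu : IsInfHarmonicOn u Ω) :
    (∀ (z0 : EuclideanSpace ℝ (Fin d)) (r K : ℝ), 0 < r → Metric.closedBall z0 (3 * r) ⊆ Ω →
      (∀ y ∈ Metric.closedBall z0 (3 * r), ∀ z ∈ Metric.closedBall z0 (3 * r),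
        |u y - u z| ≤ K) →
      ∃ x ∈ Metric.closedBall z0 (r / 2), DifferentiableAt ℝ u x ∧
        ∀ w : EuclideanSpace ℝ (Fin d), ‖w‖ ≤ r / 4 →
          |u (x + w) - u x - inner ℝ (gradient u x) w| ≤ 160 * K * (‖w‖ / r) ^ (4 / 3 : ℝ)) ∧
    (∀ z0 ∈ Ω, ∀ ε > 0, ∃ x ∈ Ω, dist x z0 < ε ∧ DifferentiableAt ℝ u x ∧
      ∃ C ρ : ℝ, 0 < ρ ∧ ∀ w : EuclideanSpace ℝ (Fin d), ‖w‖ ≤ ρ →
        |u (x + w) - u x - inner ℝ (gradient u x) w| ≤ C * ‖w‖ ^ (4 / 3 : ℝ)) :=
  dense_holder_main hΩ hu

end Vale.Agent.Results.P080.A1_DenseHolderPoints
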