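import Vale.Agent.H22.InfHarm.Semi6

/-!
# P080: semiconvex or semiconcave infinity-harmonic functions are `C^{1,1/3}` in every dimension

Let `u` be infinity-harmonic (a viscosity solution of `Δ_∞ u = 0`) on an open set `Ω ⊆ ℝ^d` and
suppose that `u` is semiconvex or semiconcave on `Ω` with constant `K ≥ 0`, that is,
`u + (K/2)|x|²` is convex on `Ω` or `u - (K/2)|x|²` is concave on `Ω`.  Then `u` is continuously
differentiable on `Ω`, and its gradient satisfies the interior Hölder estimate of exponent `1/3`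

`|∇u(x) - ∇u(y)| ≤ 100 (K τ^(2/3) + M τ^(-4/3)) |x - y|^(1/3)`

whenever the closed `τ`-balls around `x` and `y` lie in `Ω` and `M` bounds the oscillation of `u`
on `Ω`.  The constant does not depend on the dimension.  The case `K = 0` is the case of convex
or concave solutions.
-/

namespace Vale.Agent.Results.P080.B_SemiconvexC113

open Vale.Agent.H22.InfHarm

theorem result (d : ℕ) (Ω : Set (EuclideanSpace ℝ (Fin d)))
    (u : EuclideanSpace ℝ (Fin d) → ℝ) (K : ℝ) (hK : 0 ≤ K) (hΩ : IsOpen Ω)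
    (hu : IsInfHarmonicOn u Ω)
    (hc : ConvexOn ℝ Ω (fun x => u x + K / 2 * ‖x‖ ^ 2) ∨
      ConcaveOn ℝ Ω (fun x => u x - K / 2 * ‖x‖ ^ 2)) :
    ContDiffOn ℝ 1 u Ω ∧
    ∀ (M τ : ℝ), 0 < τ → (∀ a ∈ Ω, ∀ b ∈ Ω, u a - u b ≤ M) →
      ∀ x y, Metric.closedBall x τ ⊆ Ω → Metric.closedBall y τ ⊆ Ω →
        ‖gradient u x - gradient u y‖
          ≤ 100 * (K * τ ^ (2 / 3 : ℝ) + M / τ ^ (4 / 3 : ℝ)) * ‖x - y‖ ^ (1 / 3 : ℝ) :=
  semiconvex_or_semiconcave_main hK hΩ hu hc

end Vale.Agent.Results.P080.B_SemiconvexC113
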