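import Vale.Agent.H22.InfHarm.Convex3

/-!
# P080: convex or concave infinity-harmonic functions are `C^{1,1}` in every dimension

Every infinity-harmonic function (viscosity solution of `Δ_∞ u = 0`) on an open set
`Ω ⊆ ℝ^d` that is convex or concave on `Ω` is continuously differentiable, its gradient has
constant Euclidean norm, and the gradient satisfies the interior Lipschitz estimate
`|∇u(x) - ∇u(y)| ≤ (M / τ²) |x - y|` whenever the closed `τ`-balls around `x` and `y` lie in `Ω`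
and `M` bounds the oscillation of `u` on `Ω`.  If `Ω = ℝ^d` then `u` is affine.
-/

namespace Vale.Agent.Results.P080.C_ConvexC11

open Vale.Agent.H22.InfHarm

theorem result (d : ℕ) (Ω : Set (EuclideanSpace ℝ (Fin d)))
    (u : EuclideanSpace ℝ (Fin d) → ℝ) (hΩ : IsOpen Ω) (hu : IsInfHarmonicOn u Ω)
    (hc : ConvexOn ℝ Ω u ∨ ConcaveOn ℝ Ω u) :
    ContDiffOn ℝ 1 u Ω ∧
    (∃ L : ℝ, ∀ x ∈ Ω, ‖gradient u x‖ = L) ∧
    (∀ (M τ : ℝ), 0 < τ → (∀ a ∈ Ω, ∀ b ∈ Ω, u a - u b ≤ M) →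
      ∀ x y, Metric.closedBall x τ ⊆ Ω → Metric.closedBall y τ ⊆ Ω →
        ‖gradient u x - gradient u y‖ ≤ M / τ ^ 2 * ‖x - y‖) ∧
    (Ω = Set.univ → ∃ (p : EuclideanSpace ℝ (Fin d)) (c : ℝ), ∀ x, u x = inner ℝ p x + c) :=
  convex_or_concave_main hΩ hu hc

end Vale.Agent.Results.P080.C_ConvexC11
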